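import Mathlib
import Vale.Agent.P335.Mix

namespace Vale.Agent.Results.P335.Main

open Vale.Agent.P335

theorem result : ∃ p : Polynomial ℝ, ∀ n : ℕ, 4 ≤ n → ∀ d : Fin n → ℕ, (omega d).Nonempty →
    (mixedTimes d).Nonempty ∧ (tmix d : ℝ) ≤ p.eval (n : ℝ) := by
  refine ⟨Polynomial.X ^ 8 * Polynomial.C (2 ^ 20) * (Polynomial.X ^ 2 + Polynomial.C 2),
    fun n hn d _ => ?_⟩
  have h := mixed (d := d) (by rw [Fintype.card_fin]; exact hn)
  rw [Fintype.card_fin] at h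
  refine ⟨⟨_, h⟩, ?_⟩
  have h2 : tmix d ≤ n ^ 8 * 2 ^ 20 * (n ^ 2 + 2) := Nat.sInf_le h
  have h3 : (tmix d : ℝ) ≤ ((n ^ 8 * 2 ^ 20 * (n ^ 2 + 2) : ℕ) : ℝ) := by exact_mod_cast h2
  refine h3.trans (le_of_eq ?_)
  simp only [Polynomial.eval_mul, Polynomial.eval_add, Polynomial.eval_pow, Polynomial.eval_X,
    Polynomial.eval_C]
  push_cast
  ring

end Vale.Agent.Results.P335.Main
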